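import Mathlib

/-! P034: environment covers. -/

namespace Vale.Agent.H2.P034

open Finset

variable {α : Type*} [Fintype α] [DecidableEq α]

/-- `∑ γ(S) s^|S \ V|`. -/
noncomputable def Lam (γ : Finset α → ℝ) (s : ℝ) (V : Finset α) : ℝ :=
  ∑ S : Finset α, γ S * s ^ (S \ V).card

/-- unnormalised transition weight. -/
noncomputable def Tw (γ : Finset α → ℝ) (s : ℝ) (V Y : Finset α) : ℝ :=
  if Y.Nonempty ∧ Disjoint Y V then
    ∑ S : Finset α, (if Y ⊆ S then γ S * s ^ (S \ (V ∪ Y)).card else 0) else 0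

theorem Tw_nonneg {γ : Finset α → ℝ} (hγ : ∀ S, 0 ≤ γ S) {s : ℝ} (hs : 0 ≤ s)
    (V Y : Finset α) : 0 ≤ Tw γ s V Y := by
  unfold Tw
  split_ifs
  · refine Finset.sum_nonneg (fun S _ => ?_)
    split_ifs
    · exact mul_nonneg (hγ S) (pow_nonneg hs _)
    · exact le_refl _
  · exact le_refl _

theorem Lam_nonneg {γ : Finset α → ℝ} (hγ : ∀ S, 0 ≤ γ S) {s : ℝ} (hs : 0 ≤ s)
    (V : Finset α) : 0 ≤ Lam γ s V :=
  Finset.sum_nonneg (fun S _ => mul_nonneg (hγ S) (pow_nonneg hs _))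

theorem Lam_mono {γ : Finset α → ℝ} (hγ : ∀ S, 0 ≤ γ S) {s s' : ℝ} (hs : 0 ≤ s) (h : s ≤ s')
    (V : Finset α) : Lam γ s V ≤ Lam γ s' V :=
  Finset.sum_le_sum (fun S _ => mul_le_mul_of_nonneg_left (pow_le_pow_left₀ hs h _) (hγ S))

theorem sum_Tw_pow (γ : Finset α → ℝ) (s q : ℝ) (V : Finset α) :
    ∑ Y : Finset α, Tw γ s V Y * q ^ Y.card = Lam γ (s + q) V - Lam γ s V := by
  have key : ∀ S : Finset α,
      (∑ Y : Finset α, (if Y.Nonempty ∧ Disjoint Y V ∧ Y ⊆ S then
        s ^ (S \ (V ∪ Y)).card * q ^ Y.card else 0))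
        = (s + q) ^ (S \ V).card - s ^ (S \ V).card := by
    intro S
    have h1 : (∑ Y ∈ (S \ V).powerset, q ^ Y.card * s ^ ((S \ V).card - Y.card))
        = (q + s) ^ (S \ V).card := Finset.sum_pow_mul_eq_add_pow q s (S \ V)
    have h2 : (∑ Y : Finset α, (if Y.Nonempty ∧ Disjoint Y V ∧ Y ⊆ S then
        s ^ (S \ (V ∪ Y)).card * q ^ Y.card else 0))
        = ∑ Y ∈ (S \ V).powerset.erase ∅, q ^ Y.card * s ^ ((S \ V).card - Y.card) := by
      rw [← Finset.sum_filter]
      refine Finset.sum_congr ?_ ?_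
      · ext Y
        simp only [Finset.mem_filter, Finset.mem_univ, true_and, Finset.mem_erase,
          Finset.mem_powerset, ne_eq, Finset.subset_sdiff, Finset.nonempty_iff_ne_empty]
        tauto
      · intro Y hY
        rw [Finset.mem_erase, Finset.mem_powerset] at hY
        have h3 : S \ (V ∪ Y) = (S \ V) \ Y := by
          rw [Finset.sdiff_union_distrib]
          ext x; simp only [Finset.mem_inter, Finset.mem_sdiff]; tauto
        rw [h3, Finset.card_sdiff_of_subset hY.2]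
        ring
    rw [h2]
    have h4 : (∅ : Finset α) ∈ (S \ V).powerset := Finset.empty_mem_powerset _
    rw [← Finset.add_sum_erase _ _ h4] at h1
    simp only [Finset.card_empty, pow_zero, one_mul, Nat.sub_zero] at h1
    rw [add_comm s q, ← h1]; ring
  have h5 : ∀ Y : Finset α, Tw γ s V Y * q ^ Y.card
      = ∑ S : Finset α, γ S * (if Y.Nonempty ∧ Disjoint Y V ∧ Y ⊆ S then
        s ^ (S \ (V ∪ Y)).card * q ^ Y.card else 0) := by
    intro Y
    unfold Tw
    by_cases h : Y.Nonempty ∧ Disjoint Y V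
    · rw [if_pos h, Finset.sum_mul]
      refine Finset.sum_congr rfl (fun S _ => ?_)
      by_cases h6 : Y ⊆ S
      · rw [if_pos h6, if_pos ⟨h.1, h.2, h6⟩]; ring
      · rw [if_neg h6, if_neg (fun h7 => h6 h7.2.2)]; ring
    · rw [if_neg h, zero_mul]
      symm
      refine Finset.sum_eq_zero (fun S _ => ?_)
      rw [if_neg (fun h7 => h ⟨h7.1, h7.2.1⟩), mul_zero]
  rw [Finset.sum_congr rfl (fun Y _ => h5 Y), Finset.sum_comm]
  unfold Lam
  rw [← Finset.sum_sub_distrib]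
  refine Finset.sum_congr rfl (fun S _ => ?_)
  rw [← Finset.mul_sum, key S]; ring

theorem le_sum_Tw {γ : Finset α → ℝ} (hγ : ∀ S, 0 ≤ γ S) {s : ℝ} (hs : 0 ≤ s)
    {V U : Finset α} (hVU : V ⊆ U) :
    Lam γ s U - Lam γ s V ≤ ∑ Y ∈ U.powerset, Tw γ s V Y := by
  have h5 : ∀ Y : Finset α, Tw γ s V Y
      = ∑ S : Finset α, γ S * (if Y.Nonempty ∧ Disjoint Y V ∧ Y ⊆ S then
        s ^ (S \ (V ∪ Y)).card else 0) := by
    intro Y
    unfold Tw
    by_cases h : Y.Nonempty ∧ Disjoint Y V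
    · rw [if_pos h]
      refine Finset.sum_congr rfl (fun S _ => ?_)
      by_cases h6 : Y ⊆ S
      · rw [if_pos h6, if_pos ⟨h.1, h.2, h6⟩]
      · rw [if_neg h6, if_neg (fun h7 => h6 h7.2.2)]; ring
    · rw [if_neg h]
      symm
      refine Finset.sum_eq_zero (fun S _ => ?_)
      rw [if_neg (fun h7 => h ⟨h7.1, h7.2.1⟩), mul_zero]
  rw [Finset.sum_congr rfl (fun Y _ => h5 Y), Finset.sum_comm]
  unfold Lam
  rw [← Finset.sum_sub_distrib]
  refine Finset.sum_le_sum (fun S _ => ?_)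
  rw [← Finset.mul_sum, ← mul_sub]
  refine mul_le_mul_of_nonneg_left ?_ (hγ S)
  have hnn : ∀ Y ∈ U.powerset, 0 ≤ (if Y.Nonempty ∧ Disjoint Y V ∧ Y ⊆ S then
        s ^ (S \ (V ∪ Y)).card else 0) := by
    intro Y _
    split_ifs
    · exact pow_nonneg hs _
    · exact le_refl _
  by_cases hne : ((S ∩ U) \ V).Nonempty
  · have h1 : (S ∩ U) \ V ∈ U.powerset := by
      rw [Finset.mem_powerset]
      exact Finset.sdiff_subset.trans Finset.inter_subset_right
    have h2 := Finset.single_le_sum hnn h1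
    have h3 : S \ (V ∪ ((S ∩ U) \ V)) = S \ U := by
      ext x
      simp only [Finset.mem_sdiff, Finset.mem_union, Finset.mem_inter]
      constructor
      · rintro ⟨hx, hx2⟩
        refine ⟨hx, fun hU => hx2 ?_⟩
        by_cases hV : x ∈ V
        · exact Or.inl hV
        · exact Or.inr ⟨⟨hx, hU⟩, hV⟩
      · rintro ⟨hx, hx2⟩
        refine ⟨hx, ?_⟩
        rintro (hV | ⟨⟨_, hU⟩, _⟩)
        · exact hx2 (hVU hV)
        · exact hx2 hU
    rw [if_pos ⟨hne, Finset.sdiff_disjoint, Finset.sdiff_subset.trans Finset.inter_subset_left⟩,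
      h3] at h2
    have h4 : 0 ≤ s ^ (S \ V).card := pow_nonneg hs _
    linarith
  · rw [Finset.not_nonempty_iff_eq_empty, Finset.sdiff_eq_empty_iff_subset] at hne
    have h3 : S \ U = S \ V := by
      ext x
      simp only [Finset.mem_sdiff]
      constructor
      · rintro ⟨hx, hx2⟩
        exact ⟨hx, fun hV => hx2 (hVU hV)⟩
      · rintro ⟨hx, hx2⟩
        exact ⟨hx, fun hU => hx2 (hne (Finset.mem_inter.mpr ⟨hx, hU⟩))⟩
    rw [h3, sub_self]
    exact Finset.sum_nonneg hnn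

/-- Lemma 1, from an arbitrary starting set. -/
theorem exists_pi_aux {γ : Finset α → ℝ} (hγ : ∀ S, 0 ≤ γ S) {s q : ℝ} (hs : 0 ≤ s)
    (hq : 0 ≤ q) : ∀ n : ℕ, ∀ V : Finset α, (univ \ V).card = n →
    ∃ π : Finset α → ℝ, (∀ O, 0 ≤ π O) ∧ (∀ O, π O ≠ 0 → V ⊆ O ∧ 1 ≤ Lam γ (s + q) O) ∧
      (∀ U, V ⊆ U → 1 ≤ Lam γ s U → 1 ≤ ∑ O ∈ U.powerset, π O) ∧
      (∑ O, π O * q ^ (O \ V).card ≤ 1) ∧
      (Lam γ (s + q) V < 1 → ∑ O, π O * q ^ (O \ V).card
        ≤ (Lam γ (s + q) V - Lam γ s V) / (1 - Lam γ s V)) := by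
  intro n
  induction n using Nat.strong_induction_on with
  | _ n ih =>
  intro V hV
  by_cases hL : 1 ≤ Lam γ (s + q) V
  · refine ⟨fun O => if O = V then 1 else 0, fun O => by dsimp only; split_ifs <;> norm_num, ?_, ?_, ?_, ?_⟩
    · intro O hO
      by_cases h : O = V
      · subst h; exact ⟨Finset.Subset.refl _, hL⟩
      · simp [h] at hO
    · intro U hU _
      rw [Finset.sum_ite_eq' U.powerset V (fun _ => (1 : ℝ)), if_pos (Finset.mem_powerset.mpr hU)]
    · have : ∀ O : Finset α, (if O = V then (1 : ℝ) else 0) * q ^ (O \ V).card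
          = if O = V then 1 else 0 := by
        intro O
        by_cases h : O = V
        · subst h; simp
        · simp [h]
      rw [Finset.sum_congr rfl (fun O _ => this O)]
      simp
    · intro h; exact absurd hL (not_le.mpr h)
  · rw [not_le] at hL
    have hLs : Lam γ s V < 1 := lt_of_le_of_lt (Lam_mono hγ hs (by linarith) V) hL
    have hD : 0 < 1 - Lam γ s V := by linarith
    have hP : ∀ Y : Finset α, ∃ π : Finset α → ℝ, (∀ O, 0 ≤ π O) ∧
        ((Y.Nonempty ∧ Disjoint Y V) →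
        ((∀ O, π O ≠ 0 → V ∪ Y ⊆ O ∧ 1 ≤ Lam γ (s + q) O) ∧
        (∀ U, V ∪ Y ⊆ U → 1 ≤ Lam γ s U → 1 ≤ ∑ O ∈ U.powerset, π O) ∧
        (∑ O, π O * q ^ (O \ (V ∪ Y)).card ≤ 1))) := by
      intro Y
      by_cases hY : Y.Nonempty ∧ Disjoint Y V
      · have hlt : (univ \ (V ∪ Y)).card < n := by
          rw [← hV]
          apply Finset.card_lt_card
          obtain ⟨y, hy⟩ := hY.1
          rw [Finset.ssubset_iff_of_subset]
          · exact ⟨y, by simp [Finset.disjoint_left.mp hY.2 hy], by simp [hy]⟩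
          · exact Finset.sdiff_subset_sdiff (Finset.Subset.refl _) Finset.subset_union_left
        obtain ⟨π, h1, h2, h3, h4, _⟩ := ih _ hlt (V ∪ Y) rfl
        exact ⟨π, h1, fun _ => ⟨h2, h3, h4⟩⟩
      · exact ⟨fun _ => 0, fun _ => le_refl _, fun h => absurd h hY⟩
    choose P hP0 hP1 using hP
    have hT0 : ∀ Y, 0 ≤ Tw γ s V Y := fun Y => Tw_nonneg hγ hs V Y
    have hgood : ∀ Y, Tw γ s V Y ≠ 0 → Y.Nonempty ∧ Disjoint Y V := by
      intro Y hY
      by_contra h
      apply hY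
      unfold Tw
      rw [if_neg h]
    have hcost : ∑ O, (∑ Y, Tw γ s V Y / (1 - Lam γ s V) * P Y O) * q ^ (O \ V).card
        ≤ (Lam γ (s + q) V - Lam γ s V) / (1 - Lam γ s V) := by
      have h1 : ∑ O, (∑ Y, Tw γ s V Y / (1 - Lam γ s V) * P Y O) * q ^ (O \ V).card
          = ∑ Y, Tw γ s V Y / (1 - Lam γ s V) * ∑ O, P Y O * q ^ (O \ V).card := by
        simp_rw [Finset.sum_mul, Finset.mul_sum]
        rw [Finset.sum_comm]
        refine Finset.sum_congr rfl (fun Y _ => Finset.sum_congr rfl (fun O _ => by ring))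
      rw [h1, ← sum_Tw_pow, Finset.sum_div]
      refine Finset.sum_le_sum (fun Y _ => ?_)
      by_cases hTY : Tw γ s V Y = 0
      · rw [hTY]; simp
      · have hY := hgood Y hTY
        obtain ⟨h2, _, h4⟩ := hP1 Y hY
        have h5 : ∑ O, P Y O * q ^ (O \ V).card
            = q ^ Y.card * ∑ O, P Y O * q ^ (O \ (V ∪ Y)).card := by
          rw [Finset.mul_sum]
          refine Finset.sum_congr rfl (fun O _ => ?_)
          by_cases hO : P Y O = 0
          · rw [hO]; simp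
          · obtain ⟨h6, _⟩ := h2 O hO
            have h7 : (O \ V).card = Y.card + (O \ (V ∪ Y)).card := by
              have h8 : O \ V = Y ∪ (O \ (V ∪ Y)) := by
                ext x
                simp only [Finset.mem_sdiff, Finset.mem_union]
                constructor
                · rintro ⟨hx, hx2⟩
                  by_cases hxY : x ∈ Y
                  · exact Or.inl hxY
                  · exact Or.inr ⟨hx, by rintro (h | h); exacts [hx2 h, hxY h]⟩
                · rintro (hx | ⟨hx, hx2⟩)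
                  · exact ⟨h6 (Finset.mem_union_right _ hx), Finset.disjoint_left.mp hY.2 hx⟩
                  · exact ⟨hx, fun h => hx2 (Or.inl h)⟩
              rw [h8, Finset.card_union_of_disjoint]
              rw [Finset.disjoint_left]
              intro x hx hx2
              exact (Finset.mem_sdiff.mp hx2).2 (Finset.mem_union_right _ hx)
            rw [h7, pow_add]; ring
        rw [h5]
        have h9 : q ^ Y.card * ∑ O, P Y O * q ^ (O \ (V ∪ Y)).card ≤ q ^ Y.card := by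
          have : 0 ≤ q ^ Y.card := pow_nonneg hq _
          nlinarith
        calc Tw γ s V Y / (1 - Lam γ s V) * (q ^ Y.card * ∑ O, P Y O * q ^ (O \ (V ∪ Y)).card)
            ≤ Tw γ s V Y / (1 - Lam γ s V) * q ^ Y.card :=
              mul_le_mul_of_nonneg_left h9 (div_nonneg (hT0 Y) hD.le)
          _ = Tw γ s V Y * q ^ Y.card / (1 - Lam γ s V) := by ring
    refine ⟨fun O => ∑ Y, Tw γ s V Y / (1 - Lam γ s V) * P Y O, ?_, ?_, ?_, ?_, ?_⟩
    · intro O
      exact Finset.sum_nonneg (fun Y _ => mul_nonneg (div_nonneg (hT0 Y) hD.le) (hP0 Y O))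
    · intro O hO
      obtain ⟨Y, _, hY⟩ := Finset.exists_ne_zero_of_sum_ne_zero hO
      have hTY : Tw γ s V Y ≠ 0 := by
        intro h; apply hY; rw [h]; simp
      have hPY : P Y O ≠ 0 := by
        intro h; apply hY; rw [h]; simp
      obtain ⟨h2, _, _⟩ := hP1 Y (hgood Y hTY)
      obtain ⟨h6, h7⟩ := h2 O hPY
      exact ⟨Finset.subset_union_left.trans h6, h7⟩
    · intro U hVU hU
      have h1 : ∑ O ∈ U.powerset, (∑ Y, Tw γ s V Y / (1 - Lam γ s V) * P Y O)
          = ∑ Y, Tw γ s V Y / (1 - Lam γ s V) * ∑ O ∈ U.powerset, P Y O := by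
        rw [Finset.sum_comm]
        refine Finset.sum_congr rfl (fun Y _ => ?_)
        rw [Finset.mul_sum]
      rw [h1]
      have h2 : ∑ Y ∈ U.powerset, Tw γ s V Y / (1 - Lam γ s V)
          ≤ ∑ Y, Tw γ s V Y / (1 - Lam γ s V) * ∑ O ∈ U.powerset, P Y O := by
        calc ∑ Y ∈ U.powerset, Tw γ s V Y / (1 - Lam γ s V)
            ≤ ∑ Y ∈ U.powerset, Tw γ s V Y / (1 - Lam γ s V) * ∑ O ∈ U.powerset, P Y O := by
              refine Finset.sum_le_sum (fun Y hYU => ?_)
              by_cases hTY : Tw γ s V Y = 0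
              · rw [hTY]; simp
              · obtain ⟨_, h3, _⟩ := hP1 Y (hgood Y hTY)
                have h4 := h3 U (Finset.union_subset hVU (Finset.mem_powerset.mp hYU)) hU
                have h5 : 0 ≤ Tw γ s V Y / (1 - Lam γ s V) := div_nonneg (hT0 Y) hD.le
                nlinarith
          _ ≤ _ := by
              refine Finset.sum_le_sum_of_subset_of_nonneg (Finset.subset_univ _)
                (fun Y _ _ => ?_)
              exact mul_nonneg (div_nonneg (hT0 Y) hD.le)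
                (Finset.sum_nonneg (fun O _ => hP0 Y O))
      refine le_trans ?_ h2
      rw [← Finset.sum_div, le_div_iff₀ hD]
      have h3 := le_sum_Tw hγ hs hVU
      linarith
    · refine le_trans hcost ?_
      rw [div_le_one hD]
      linarith
    · intro _; exact hcost

/-- Lemma 1: a fractional cover of `{Λ_s ≥ 1}` by sets of `{Λ_{s+q} ≥ 1}` of small cost. -/
theorem exists_pi {γ : Finset α → ℝ} (hγ : ∀ S, 0 ≤ γ S) {s q : ℝ} (hs : 0 ≤ s)
    (hq : 0 ≤ q) (hw : Lam γ (s + q) ∅ < 1) :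
    ∃ π : Finset α → ℝ, (∀ O, 0 ≤ π O) ∧ (∀ O, π O ≠ 0 → 1 ≤ Lam γ (s + q) O) ∧
      (∀ U, 1 ≤ Lam γ s U → 1 ≤ ∑ O ∈ U.powerset, π O) ∧
      (∑ O, π O * q ^ O.card ≤ Lam γ (s + q) ∅) := by
  obtain ⟨π, h1, h2, h3, _, h5⟩ := exists_pi_aux hγ hs hq _ ∅ rfl
  refine ⟨π, h1, fun O hO => (h2 O hO).2, fun U hU => h3 U (Finset.empty_subset _) hU, ?_⟩
  have h6 := h5 hw
  simp only [Finset.sdiff_empty] at h6
  refine le_trans h6 ?_
  have h7 : 0 ≤ Lam γ s ∅ := Lam_nonneg hγ hs _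
  have h8 : Lam γ s ∅ ≤ Lam γ (s + q) ∅ := Lam_mono hγ hs (by linarith) _
  have hD : 0 < 1 - Lam γ s ∅ := by linarith
  rw [div_le_iff₀ hD]
  nlinarith

/-- Lemma 2: rounding with fallback. -/
theorem rounding (x : Finset α → ℝ) (hx : ∀ i, 0 ≤ x i) (c : Finset α → ℝ)
    (hc : ∀ i, 0 ≤ c i) (a : Finset α → ℝ) (ha : ∀ k, 0 ≤ a k) (A : Finset (Finset α)) :
    ∀ B : Finset (Finset α), ∃ R ⊆ A,
      ∑ i ∈ R, c i + ∑ k ∈ B with ∀ i ∈ R, ¬ i ⊆ k, a k
        ≤ ∑ i ∈ A, x i * c i + ∑ k ∈ B, a k * Real.exp (-∑ i ∈ A with i ⊆ k, x i) := by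
  induction A using Finset.induction_on with
  | empty =>
    intro B
    refine ⟨∅, Finset.Subset.refl _, ?_⟩
    simp
  | insert i₀ A hi₀ ih =>
    intro B
    obtain ⟨R0, hR0, h0⟩ := ih B
    obtain ⟨R1, hR1, h1⟩ := ih (B.filter (fun k => ¬ i₀ ⊆ k))
    set y : ℝ := 1 - Real.exp (-x i₀) with hy
    have hy0 : 0 ≤ y := by
      have : Real.exp (-x i₀) ≤ 1 := Real.exp_le_one_iff.mpr (by linarith [hx i₀])
      linarith
    have hy1 : y ≤ x i₀ := by
      have := Real.add_one_le_exp (-x i₀)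
      linarith
    have hy2 : y < 1 := by have := Real.exp_pos (-x i₀); linarith
    set W : Finset α → ℝ := fun k => a k * Real.exp (-∑ i ∈ A with i ⊆ k, x i) with hW
    have hWn : ∀ k, 0 ≤ W k := fun k => mul_nonneg (ha k) (Real.exp_pos _).le
    have hsplit : ∑ k ∈ B, W k = ∑ k ∈ B with ¬ i₀ ⊆ k, W k + ∑ k ∈ B with i₀ ⊆ k, W k := by
      rw [add_comm]; exact (Finset.sum_filter_add_sum_filter_not B (fun k => i₀ ⊆ k) W).symm
    have hnew : ∑ k ∈ B, a k * Real.exp (-∑ i ∈ insert i₀ A with i ⊆ k, x i)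
        = ∑ k ∈ B with ¬ i₀ ⊆ k, W k + (1 - y) * ∑ k ∈ B with i₀ ⊆ k, W k := by
      rw [← Finset.sum_filter_add_sum_filter_not B (fun k => i₀ ⊆ k), add_comm]
      congr 1
      · refine Finset.sum_congr rfl (fun k hk => ?_)
        rw [Finset.mem_filter] at hk
        rw [Finset.filter_insert, if_neg hk.2]
      · rw [Finset.mul_sum]
        refine Finset.sum_congr rfl (fun k hk => ?_)
        rw [Finset.mem_filter] at hk
        rw [Finset.filter_insert, if_pos hk.2, Finset.sum_insert (by simp [hi₀]), neg_add,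
          Real.exp_add]
        simp only [hW, hy]; ring
    have hsum : ∑ i ∈ insert i₀ A, x i * c i = x i₀ * c i₀ + ∑ i ∈ A, x i * c i :=
      Finset.sum_insert hi₀
    have hbig : (1 - y) * (∑ i ∈ A, x i * c i + ∑ k ∈ B, W k)
        + y * (c i₀ + (∑ i ∈ A, x i * c i + ∑ k ∈ B with ¬ i₀ ⊆ k, W k))
        ≤ ∑ i ∈ insert i₀ A, x i * c i
          + ∑ k ∈ B, a k * Real.exp (-∑ i ∈ insert i₀ A with i ⊆ k, x i) := by
      rw [hnew, hsum, hsplit]
      have := mul_le_mul_of_nonneg_right hy1 (hc i₀)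
      nlinarith
    by_cases hcase : ∑ i ∈ A, x i * c i + ∑ k ∈ B, W k
        ≤ c i₀ + (∑ i ∈ A, x i * c i + ∑ k ∈ B with ¬ i₀ ⊆ k, W k)
    · refine ⟨R0, hR0.trans (Finset.subset_insert _ _), le_trans h0 (le_trans ?_ hbig)⟩
      nlinarith
    · rw [not_le] at hcase
      refine ⟨insert i₀ R1, Finset.insert_subset_insert _ hR1, le_trans ?_ hbig⟩
      have hi₁ : i₀ ∉ R1 := fun h => hi₀ (hR1 h)
      rw [Finset.sum_insert hi₁]
      have hfil : (B.filter (fun k => ∀ i ∈ insert i₀ R1, ¬ i ⊆ k))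
          = ((B.filter (fun k => ¬ i₀ ⊆ k)).filter (fun k => ∀ i ∈ R1, ¬ i ⊆ k)) := by
        ext k
        simp only [Finset.mem_filter, Finset.mem_insert, forall_eq_or_imp]
        tauto
      rw [hfil]
      nlinarith

end Vale.Agent.H2.P034
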