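import Vale.Agent.H2.P034.Core

/-! P034: the iteration. -/

namespace Vale.Agent.H2.P034

open Finset

variable {α : Type*} [Fintype α] [DecidableEq α]

/-- `U` contains no member of `R`. -/
def Avoid (R : Finset (Finset α)) (U : Finset α) : Prop := ∀ O ∈ R, ¬ O ⊆ U

instance (R : Finset (Finset α)) (U : Finset α) : Decidable (Avoid R U) := by
  unfold Avoid; infer_instance

theorem step {q L : ℝ} (hq : 0 ≤ q) (hL : 0 ≤ L) (R : Finset (Finset α))
    (π : Finset α → ℝ) (hπ : ∀ O, 0 ≤ π O) (a : Finset α → ℝ) (ha : ∀ U, 0 ≤ a U)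
    (hcov : ∀ U, a U ≠ 0 → 1 ≤ ∑ O ∈ U.powerset, π O) :
    ∃ R' : Finset (Finset α),
      ∑ O ∈ R', q ^ O.card + ∑ U with Avoid R' U, a U
        ≤ ∑ O ∈ R, q ^ O.card + L * ∑ O with Avoid R O, π O * q ^ O.card
          + Real.exp (-L) * ∑ U, a U := by
  obtain ⟨R1, _, h1⟩ := rounding (fun O => L * π O)
    (fun O => mul_nonneg hL (hπ O)) (fun O => q ^ O.card) (fun O => pow_nonneg hq _) a ha
    (univ.filter (fun O => Avoid R O)) (univ.filter (fun O => Avoid R O))
  refine ⟨R ∪ R1, ?_⟩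
  have h2 : ∑ O ∈ R ∪ R1, q ^ O.card ≤ ∑ O ∈ R, q ^ O.card + ∑ O ∈ R1, q ^ O.card := by
    rw [← Finset.sum_union_inter]
    have : 0 ≤ ∑ O ∈ R ∩ R1, q ^ O.card := Finset.sum_nonneg (fun O _ => pow_nonneg hq _)
    linarith
  have h3 : (univ.filter (fun U : Finset α => Avoid (R ∪ R1) U))
      = (univ.filter (fun U => Avoid R U)).filter (fun U => ∀ O ∈ R1, ¬ O ⊆ U) := by
    ext U
    rw [Finset.mem_filter, Finset.mem_filter, Finset.mem_filter]
    constructor
    · rintro ⟨h0, h⟩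
      exact ⟨⟨h0, fun O hO => h O (Finset.mem_union_left _ hO)⟩,
        fun O hO => h O (Finset.mem_union_right _ hO)⟩
    · rintro ⟨⟨h0, h⟩, h'⟩
      refine ⟨h0, fun O hO => ?_⟩
      rcases Finset.mem_union.mp hO with hO | hO
      · exact h O hO
      · exact h' O hO
  have h4 : ∑ O ∈ univ.filter (fun O : Finset α => Avoid R O), L * π O * q ^ O.card
      = L * ∑ O with Avoid R O, π O * q ^ O.card := by
    rw [Finset.mul_sum]
    exact Finset.sum_congr rfl (fun O _ => by ring)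
  have h5 : ∑ k ∈ univ.filter (fun O : Finset α => Avoid R O),
      a k * Real.exp (-∑ i ∈ (univ.filter (fun O : Finset α => Avoid R O)) with i ⊆ k, L * π i)
      ≤ Real.exp (-L) * ∑ U, a U := by
    calc _ ≤ ∑ k ∈ univ.filter (fun O : Finset α => Avoid R O), Real.exp (-L) * a k := by
          refine Finset.sum_le_sum (fun k hk => ?_)
          rw [Finset.mem_filter] at hk
          by_cases hak : a k = 0
          · rw [hak]; simp
          · have h6 : (univ.filter (fun O : Finset α => Avoid R O)).filter (fun i => i ⊆ k)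
                = k.powerset := by
              ext O
              simp only [Finset.mem_filter, Finset.mem_univ, true_and, Finset.mem_powerset]
              constructor
              · exact fun h => h.2
              · exact fun h => ⟨fun O' hO' h7 => hk.2 O' hO' (h7.trans h), h⟩
            rw [h6, ← Finset.mul_sum, mul_comm (a k)]
            refine mul_le_mul_of_nonneg_right ?_ (ha k)
            rw [Real.exp_le_exp]
            have h7 := hcov k hak
            nlinarith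
      _ ≤ ∑ U, Real.exp (-L) * a U :=
          Finset.sum_le_sum_of_subset_of_nonneg (Finset.subset_univ _)
            (fun U _ _ => mul_nonneg (Real.exp_pos _).le (ha U))
      _ = _ := by rw [Finset.mul_sum]
  rw [h3]
  have h1' : ∑ O ∈ R1, q ^ O.card
      + ∑ U ∈ (univ.filter (fun U : Finset α => Avoid R U)).filter (fun U => ∀ O ∈ R1, ¬ O ⊆ U), a U
      ≤ ∑ O ∈ univ.filter (fun O : Finset α => Avoid R O), L * π O * q ^ O.card
        + ∑ k ∈ univ.filter (fun O : Finset α => Avoid R O), a k * Real.exp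
          (-∑ i ∈ (univ.filter (fun O : Finset α => Avoid R O)) with i ⊆ k, L * π i) := h1
  rw [h4] at h1'
  linarith

/-- `8, 2^8, 2^(2^8), ...`. -/
def Lseq : ℕ → ℕ
  | 0 => 8
  | n + 1 => 2 ^ Lseq n

/-- `1, 2, 4, 16, 65536, ...`. -/
def tower : ℕ → ℕ
  | 0 => 1
  | n + 1 => 2 ^ tower n

theorem tower_le (n : ℕ) : tower n ≤ Lseq n := by
  induction n with
  | zero => norm_num [tower, Lseq]
  | succ n ih => exact Nat.pow_le_pow_right (by norm_num) ih

theorem le_Lseq (n : ℕ) : 8 * (n + 1) ≤ Lseq n := by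
  induction n with
  | zero => norm_num [Lseq]
  | succ n ih =>
    have h1 : ∀ x : ℕ, 8 ≤ x → x + 8 ≤ 2 ^ x := by
      intro x hx
      induction x, hx using Nat.le_induction with
      | base => norm_num
      | succ x hx ihx => rw [pow_succ]; omega
    have h2 := h1 (Lseq n) (by omega)
    show 8 * (n + 1 + 1) ≤ 2 ^ Lseq n
    omega

theorem Lseq_exp (n : ℕ) :
    (Lseq (n + 1) : ℝ) * Real.exp (-(Lseq n : ℝ)) ≤ (1 / 2) ^ (n + 1) := by
  have h1 : (Lseq (n + 1) : ℝ) = 2 ^ Lseq n := by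
    show ((2 ^ Lseq n : ℕ) : ℝ) = _
    push_cast; rfl
  have h2 : Real.exp (-(Lseq n : ℝ)) = Real.exp (-1) ^ Lseq n := by
    rw [← Real.exp_nat_mul]; congr 1; ring
  rw [h1, h2, ← mul_pow]
  have h3 : 2 * Real.exp (-1) ≤ 3 / 4 := by
    rw [Real.exp_neg]
    have := Real.exp_one_gt_d9
    have h4 : (Real.exp 1)⁻¹ ≤ (8 / 3 : ℝ)⁻¹ := inv_anti₀ (by norm_num) (by linarith)
    norm_num at h4 ⊢
    linarith
  have h5 : 0 ≤ 2 * Real.exp (-1) := by positivity
  calc (2 * Real.exp (-1)) ^ Lseq n ≤ (3 / 4 : ℝ) ^ Lseq n := pow_le_pow_left₀ h5 h3 _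
    _ ≤ (3 / 4 : ℝ) ^ (8 * (n + 1)) :=
        pow_le_pow_of_le_one (by norm_num) (by norm_num) (le_Lseq n)
    _ = ((3 / 4 : ℝ) ^ 8) ^ (n + 1) := by rw [pow_mul]
    _ ≤ (1 / 2) ^ (n + 1) := pow_le_pow_left₀ (by positivity) (by norm_num) _

theorem Lam_zero (γ : Finset α → ℝ) (V : Finset α) :
    Lam γ 0 V = ∑ S ∈ V.powerset, γ S := by
  unfold Lam
  have h1 : ∀ S : Finset α, γ S * (0 : ℝ) ^ (S \ V).card = if S ∈ V.powerset then γ S else 0 := by
    intro S
    by_cases h : S ⊆ V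
    · rw [if_pos (Finset.mem_powerset.mpr h), Finset.sdiff_eq_empty_iff_subset.mpr h]; simp
    · rw [if_neg (fun h2 => h (Finset.mem_powerset.mp h2)), zero_pow, mul_zero]
      rw [Finset.card_ne_zero, Finset.nonempty_iff_ne_empty, ne_eq,
        Finset.sdiff_eq_empty_iff_subset]
      exact h
  rw [Finset.sum_congr rfl (fun S _ => h1 S), ← Finset.sum_filter]
  congr 1
  ext S; simp

/-- The iterated rounding. -/
theorem exists_cover {γ : Finset α → ℝ} (hγ : ∀ S, 0 ≤ γ S) {q : ℝ} (hq : 0 ≤ q) (n : ℕ)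
    {c : ℝ} (hc1 : c < 1) (hc : Lam γ (((n : ℝ) + 1) * q) ∅ ≤ c) :
    ∃ G : Finset (Finset α),
      (∀ H : Finset α, 1 ≤ ∑ S ∈ H.powerset, γ S → ∃ S ∈ G, S ⊆ H) ∧
      ∑ S ∈ G, q ^ S.card ≤ 9 * c
        + Real.exp (-(Lseq n : ℝ)) * (1 + q) ^ (Fintype.card α) := by
  have hP : ∀ j : ℕ, ∃ π : Finset α → ℝ, j ≤ n → ((∀ O, 0 ≤ π O) ∧
      (∀ O, π O ≠ 0 → 1 ≤ Lam γ (((j + 1 : ℕ) : ℝ) * q) O) ∧
      (∀ U, 1 ≤ Lam γ ((j : ℝ) * q) U → 1 ≤ ∑ O ∈ U.powerset, π O) ∧
      (∑ O, π O * q ^ O.card ≤ c)) := by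
    intro j
    by_cases hj : j ≤ n
    · have h1 : (j : ℝ) * q + q ≤ ((n : ℝ) + 1) * q := by
        have : (j : ℝ) ≤ n := by exact_mod_cast hj
        nlinarith
      have h2 : Lam γ ((j : ℝ) * q + q) ∅ ≤ c :=
        le_trans (Lam_mono hγ (by positivity) h1 ∅) hc
      obtain ⟨π, ha, hb, hcc, hd⟩ := exists_pi hγ (s := (j : ℝ) * q) (q := q) (by positivity) hq
        (lt_of_le_of_lt h2 hc1)
      refine ⟨π, fun _ => ⟨ha, fun O hO => ?_, hcc, le_trans hd h2⟩⟩
      have h3 := hb O hO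
      have h4 : (((j + 1 : ℕ) : ℝ) * q) = (j : ℝ) * q + q := by push_cast; ring
      rw [h4]; exact h3
    · exact ⟨fun _ => 0, fun h => absurd h hj⟩
  choose P hP using hP
  have hc0 : 0 ≤ c := le_trans (Lam_nonneg hγ (by positivity) _) hc
  have hstate : ∀ i : ℕ, i ≤ n → ∃ R : Finset (Finset α),
      ∑ O ∈ R, q ^ O.card + (Lseq i : ℝ) * ∑ O with Avoid R O, P (n - i) O * q ^ O.card
        ≤ c * (8 + ∑ m ∈ range i, (1 / 2 : ℝ) ^ (m + 1)) := by
    intro i
    induction i with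
    | zero =>
      intro _
      refine ⟨∅, ?_⟩
      obtain ⟨h1, _, _, h4⟩ := hP n (le_refl n)
      have h5 : ∑ O with Avoid (∅ : Finset (Finset α)) O, P (n - 0) O * q ^ O.card ≤ c := by
        refine le_trans (Finset.sum_le_sum_of_subset_of_nonneg (Finset.subset_univ _)
          (fun O _ _ => mul_nonneg ?_ (pow_nonneg hq _))) h4
        exact h1 O
      simp only [Finset.sum_empty, zero_add, Lseq, Finset.range_zero, add_zero]
      push_cast
      linarith
    | succ i ih =>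
      intro hi
      obtain ⟨R, hR⟩ := ih (by omega)
      obtain ⟨g1, _, g3, _⟩ := hP (n - i) (by omega)
      obtain ⟨k1, k2, _, k4⟩ := hP (n - (i + 1)) (by omega)
      have hni : n - (i + 1) + 1 = n - i := by omega
      rw [hni] at k2
      obtain ⟨R', hR'⟩ := step hq (L := (Lseq i : ℝ)) (by positivity) R (P (n - i)) g1
        (fun U => (Lseq (i + 1) : ℝ) * (P (n - (i + 1)) U * q ^ U.card))
        (fun U => mul_nonneg (by positivity) (mul_nonneg (k1 U) (pow_nonneg hq _)))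
        (fun U hU => by
          apply g3
          apply k2
          intro h; apply hU; rw [h]; simp)
      refine ⟨R', ?_⟩
      have e1 : ∑ U with Avoid R' U, (Lseq (i + 1) : ℝ) * (P (n - (i + 1)) U * q ^ U.card)
          = (Lseq (i + 1) : ℝ) * ∑ O with Avoid R' O, P (n - (i + 1)) O * q ^ O.card := by
        rw [Finset.mul_sum]
      have e2 : ∑ U, (Lseq (i + 1) : ℝ) * (P (n - (i + 1)) U * q ^ U.card)
          = (Lseq (i + 1) : ℝ) * ∑ O, P (n - (i + 1)) O * q ^ O.card := by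
        rw [Finset.mul_sum]
      rw [e1, e2] at hR'
      have e3 : Real.exp (-(Lseq i : ℝ)) * ((Lseq (i + 1) : ℝ)
          * ∑ O, P (n - (i + 1)) O * q ^ O.card) ≤ c * (1 / 2) ^ (i + 1) := by
        have t1 := Lseq_exp i
        have t2 : 0 ≤ (Lseq (i + 1) : ℝ) * Real.exp (-(Lseq i : ℝ)) := by positivity
        have t3 : 0 ≤ ∑ O, P (n - (i + 1)) O * q ^ O.card :=
          Finset.sum_nonneg (fun O _ => mul_nonneg (k1 O) (pow_nonneg hq _))
        calc _ = ((Lseq (i + 1) : ℝ) * Real.exp (-(Lseq i : ℝ)))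
              * ∑ O, P (n - (i + 1)) O * q ^ O.card := by ring
          _ ≤ (1 / 2) ^ (i + 1) * c := mul_le_mul t1 k4 t3 (by positivity)
          _ = _ := by ring
      rw [Finset.sum_range_succ]
      linarith
  obtain ⟨R, hR⟩ := hstate n (le_refl n)
  rw [Nat.sub_self] at hR
  obtain ⟨g1, _, g3, _⟩ := hP 0 (Nat.zero_le n)
  set a : Finset α → ℝ := fun U => if 1 ≤ ∑ S ∈ U.powerset, γ S then q ^ U.card else 0 with hadef
  have ha : ∀ U, 0 ≤ a U := by
    intro U; simp only [hadef]; split_ifs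
    · exact pow_nonneg hq _
    · exact le_refl _
  obtain ⟨R', hR'⟩ := step hq (L := (Lseq n : ℝ)) (by positivity) R (P 0) g1 a ha
    (fun U hU => by
      apply g3
      have : 1 ≤ ∑ S ∈ U.powerset, γ S := by
        by_contra h
        apply hU; simp only [hadef]; rw [if_neg h]
      simpa [Lam_zero] using this)
  refine ⟨R' ∪ univ.filter (fun U => Avoid R' U ∧ 1 ≤ ∑ S ∈ U.powerset, γ S), ?_, ?_⟩
  · intro H hH
    by_cases h : Avoid R' H
    · exact ⟨H, Finset.mem_union_right _ (by simp [h, hH]), Finset.Subset.refl _⟩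
    · unfold Avoid at h
      push Not at h
      obtain ⟨O, hO, hOH⟩ := h
      exact ⟨O, Finset.mem_union_left _ hO, hOH⟩
  · have h1 : ∑ S ∈ R' ∪ univ.filter (fun U => Avoid R' U ∧ 1 ≤ ∑ S ∈ U.powerset, γ S),
        q ^ S.card ≤ ∑ O ∈ R', q ^ O.card + ∑ U with Avoid R' U, a U := by
      have h2 : ∑ U with Avoid R' U, a U
          = ∑ U ∈ univ.filter (fun U => Avoid R' U ∧ 1 ≤ ∑ S ∈ U.powerset, γ S), q ^ U.card := by
        have h2' : univ.filter (fun U => Avoid R' U ∧ 1 ≤ ∑ S ∈ U.powerset, γ S)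
            = (univ.filter (fun U => Avoid R' U)).filter
              (fun U => 1 ≤ ∑ S ∈ U.powerset, γ S) := by
          rw [Finset.filter_filter]
        rw [h2']
        exact (Finset.sum_filter (fun U : Finset α => 1 ≤ ∑ S ∈ U.powerset, γ S)
          (fun U => q ^ U.card)).symm
      rw [h2, ← Finset.sum_union_inter]
      have : 0 ≤ ∑ O ∈ R' ∩ univ.filter (fun U => Avoid R' U ∧ 1 ≤ ∑ S ∈ U.powerset, γ S),
          q ^ O.card := Finset.sum_nonneg (fun O _ => pow_nonneg hq _)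
      linarith
    have h3 : ∑ U, a U ≤ (1 + q) ^ (Fintype.card α) := by
      calc ∑ U, a U ≤ ∑ U : Finset α, q ^ U.card := by
            refine Finset.sum_le_sum (fun U _ => ?_)
            simp only [hadef]; split_ifs
            · exact le_refl _
            · exact pow_nonneg hq _
        _ = (1 + q) ^ (Fintype.card α) := by
            have := Finset.sum_pow_mul_eq_add_pow q 1 (univ : Finset α)
            simp only [Finset.powerset_univ, one_pow, mul_one, Finset.card_univ] at this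
            rw [this, add_comm]
    have h4 : ∑ m ∈ range n, (1 / 2 : ℝ) ^ (m + 1) ≤ 1 := by
      have h5 : ∀ k : ℕ, ∑ m ∈ range k, (1 / 2 : ℝ) ^ (m + 1) = 1 - (1 / 2) ^ k := by
        intro k
        induction k with
        | zero => simp
        | succ k ih => rw [Finset.sum_range_succ, ih, pow_succ]; ring
      rw [h5]
      have : (0 : ℝ) ≤ (1 / 2) ^ n := by positivity
      linarith
    have h6 : Real.exp (-(Lseq n : ℝ)) * ∑ U, a U
        ≤ Real.exp (-(Lseq n : ℝ)) * (1 + q) ^ (Fintype.card α) :=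
      mul_le_mul_of_nonneg_left h3 (Real.exp_pos _).le
    have h7 : c * (8 + ∑ m ∈ range n, (1 / 2 : ℝ) ^ (m + 1)) ≤ c * 9 :=
      mul_le_mul_of_nonneg_left (by linarith) hc0
    linarith

end Vale.Agent.H2.P034
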